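import Vale.Agent.P159.T1.H50.Mono0
import Vale.Agent.P159.R2.H729.Unit

/-!
One sided exploration inequality: `o` is a vertex of height `0` (the left lip), `r y` are the
vertices next to the right lip. The heights `h` with `h o = 0` for which the cluster of `o` in
`{h ≤ 0}` misses the right lip (and is surrounded by the height `1`) have weight at most
`Z_N * Z_1 / Z_0`, where `Z_N` : right lip wired, `Z_q` : right lip of height `q`.
-/

open MeasureTheory Filter Topology

namespace Vale.Agent.P159.T1.H50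

open Vale.Agent.P159 Vale.Agent.P159.H353 Vale.Agent.P159.R2.H254 Vale.Agent.P159.R2.H729
  Vale.Agent.P159.T1.H934

section expl

variable {V E : Type} [Fintype V] (s t : E → V) (o : V)

/-- the left lip as a family -/
abbrev lo : Unit → V := fun _ => o

open Classical in
/-- the cluster of `o` in `{h ≤ 0}` -/
noncomputable def Kc (h : V → ℤ) : Finset V :=
  Finset.univ.filter fun v => Cn (adjG s t) {v | h v ≤ 0} (Set.range (lo o)) {v}

variable {s t o}

lemma mem_Kc {h : V → ℤ} {v : V} :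
    v ∈ Kc s t o h ↔ Cn (adjG s t) {v | h v ≤ 0} (Set.range (lo o)) {v} := by
  unfold Kc
  simp

/-- heights which are `≤ 0` on `S` and `1` around `S` -/
def PS (s t : E → V) (o : V) (S : Finset V) (h : V → ℤ) : Prop :=
  (∀ v ∈ S, h v ≤ 0) ∧ ∀ v, Bd s t (lo o) S v → h v = 1

theorem Kc_eq_of {S : Finset V} (hS : LC s t (lo o) S) {h : V → ℤ} (h1 : PS s t o S h) :
    Kc s t o h = S := by
  obtain ⟨h1, h2⟩ := h1
  ext v
  rw [mem_Kc]
  constructor
  · intro hv
    rw [Cn_single] at hv
    obtain ⟨x, ⟨hx, hxl⟩, hv0, h3⟩ := hv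
    induction h3 with
    | refl =>
      by_contra hne
      have h4 := h2 x ⟨hne, Or.inl hxl⟩
      have h5 : h x ≤ 0 := hx
      omega
    | @tail a b _ hab ih =>
      have ha := ih hab.2.1
      by_contra hne
      have h4 := h2 b ⟨hne, Or.inr ⟨a, ha, hab.1⟩⟩
      have h5 : h b ≤ 0 := hv0
      omega
  · intro hv
    exact (hS v hv).mono (fun u hu => h1 u hu)

lemma LC_Kc (h : V → ℤ) : LC s t (lo o) (Kc s t o h) := by
  intro v hv
  rw [mem_Kc, Cn_single] at hv
  obtain ⟨x, ⟨hx, hxl⟩, hv0, h3⟩ := hv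
  induction h3 with
  | refl => exact Cn_start hxl (by
      show x ∈ Kc s t o h
      rw [mem_Kc]
      exact Cn_start hxl hx)
  | @tail a b hxa hab ih =>
    have ha := ih hab.2.1
    refine Cn_step ha hab.1 ?_
    show b ∈ Kc s t o h
    rw [mem_Kc, Cn_single]
    exact ⟨x, ⟨hx, hxl⟩, hab.2.2, hxa.tail hab⟩

lemma Kc_le (h : V → ℤ) {v : V} (hv : v ∈ Kc s t o h) : h v ≤ 0 := by
  rw [mem_Kc, Cn_single] at hv
  obtain ⟨x, hx, h1, h2⟩ := hv
  exact h1

lemma mem_Kc_o {h : V → ℤ} (h0 : h o = 0) : o ∈ Kc s t o h := by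
  rw [mem_Kc]
  exact Cn_start ⟨(), rfl⟩ (by show h o ≤ 0; rw [h0])

/-- around the cluster of `o` the heights are positive -/
lemma Kc_bd {h : V → ℤ} {v : V} (hv : Bd s t (lo o) (Kc s t o h) v) :
    1 ≤ h v := by
  by_contra hne
  have h1 : h v ≤ 0 := by omega
  apply hv.1
  rw [mem_Kc]
  rcases hv.2 with ⟨_, rfl⟩ | ⟨u, hu, hadj⟩
  · exact Cn_start ⟨(), rfl⟩ h1
  · exact Cn_step (mem_Kc.1 hu) hadj h1

/-- with unit steps the heights around the cluster of `o` are `1` -/
lemma Kc_PS {h : V → ℤ} (h0 : h o = 0) (hu : ∀ e, |h (t e) - h (s e)| ≤ 1) :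
    PS s t o (Kc s t o h) h := by
  refine ⟨fun v hv => Kc_le h hv, fun v hv => ?_⟩
  have h1 := Kc_bd hv
  rcases hv.2 with ⟨_, rfl⟩ | ⟨u, hu', e, he⟩
  · exact absurd (mem_Kc_o h0) hv.1
  · have h2 := Kc_le h hu'
    have h3 := abs_le.1 (hu e)
    rcases he with ⟨rfl, rfl⟩ | ⟨rfl, rfl⟩ <;> omega

end expl

section split

variable {V E Q : Type} [Fintype V] [Fintype E] {s t : E → V} {o : V}

open Classical in
/-- weight of the explored part, `o` has height `-1` -/
noncomputable def UK (s t : E → V) (o : V) (J : E → ℝ) (S : Finset V) (h : V → ℤ) : ℝ :=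
  if (∀ v, v ∉ S → h v = 0) ∧ (∀ v ∈ S, h v ≤ -1) ∧ h o = -1 then W (grd s t) J h else 0

lemma UK_nonneg {J : E → ℝ} (hJ : ∀ e, 0 ≤ J e) (S : Finset V) (h : V → ℤ) :
    0 ≤ UK s t o J S h := by
  unfold UK
  split_ifs
  · exact W_nonneg hJ _
  · exact le_rfl

open Classical in
/-- **domain Markov property** of the exploration of the cluster of `o` -/
theorem markovK {J : E → ℝ} (hJ : ∀ e, 0 ≤ J e) {S : Finset V} (ho : o ∈ S)
    {G : (V → ℤ) → ℝ} (hG0 : ∀ h, 0 ≤ G h)
    (hG : ∀ h h', (∀ v, v ∉ S → h v = h' v) → G h = G h')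
    (hU : Summable (UK s t o J S))
    (hV : Summable (VS s t (lo o) J S (fun h (_ : Unit) => G h))) :
    HasSum (fun g : V → ℤ => if (∀ v ∈ S, g v ≤ -1) ∧ g o = -1 ∧
        ∀ v, Bd s t (lo o) S v → g v = 0 then W (grd s t) J g * G g else 0)
      ((W (grd s t) J 0)⁻¹ * ((∑' h, UK s t o J S h) *
        ∑' x, VS s t (lo o) J S (fun h (_ : Unit) => G h) x)) := by
  have h1 : HasSum (fun y : (V → ℤ) × ((V → ℤ) × Unit) => UK s t o J S y.1 *
      VS s t (lo o) J S (fun h (_ : Unit) => G h) y.2)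
      ((∑' h, UK s t o J S h) * ∑' x, VS s t (lo o) J S (fun h (_ : Unit) => G h) x) := by
    have h2 : Summable fun y : (V → ℤ) × ((V → ℤ) × Unit) =>
        UK s t o J S y.1 * VS s t (lo o) J S (fun h (_ : Unit) => G h) y.2 :=
      hU.mul_of_nonneg hV (UK_nonneg hJ S) (VS_nonneg hJ S fun h _ => hG0 h)
    rw [hU.tsum_mul_tsum hV h2]
    exact h2.hasSum
  set ι : (V → ℤ) → (V → ℤ) × ((V → ℤ) × Unit) := fun x => (rs S x, (rc S x, ())) with hι
  have hinj : Function.Injective ι := by
    intro h h' hx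
    simp only [hι, Prod.mk.injEq, and_true] at hx
    obtain ⟨h3, h4⟩ := hx
    funext v
    by_cases hv : v ∈ S
    · have := congrFun h3 v
      simpa [rs, hv] using this
    · have := congrFun h4 v
      simpa [rc, hv] using this
  have h7 := (hinj.hasSum_iff (f := fun y : (V → ℤ) × ((V → ℤ) × Unit) =>
    UK s t o J S y.1 * VS s t (lo o) J S (fun h (_ : Unit) => G h) y.2) ?_).2 h1
  · have h8 := h7.mul_left (W (grd s t) J 0)⁻¹
    have e : ∀ x : V → ℤ, (W (grd s t) J 0)⁻¹ *
        (UK s t o J S (rs S x) * VS s t (lo o) J S (fun h (_ : Unit) => G h) (rc S x, ())) =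
        if (∀ v ∈ S, x v ≤ -1) ∧ x o = -1 ∧ ∀ v, Bd s t (lo o) S v → x v = 0 then
          W (grd s t) J x * G x else 0 := by
      intro x
      have hW0 := (W0_pos (s := s) (t := t) hJ).ne'
      by_cases hE : (∀ v ∈ S, x v ≤ -1) ∧ x o = -1 ∧ ∀ v, Bd s t (lo o) S v → x v = 0
      · rw [if_pos hE]
        obtain ⟨h9, h9', h10⟩ := hE
        have c1 : (∀ v, v ∉ S → rs S x v = 0) ∧ (∀ v ∈ S, rs S x v ≤ -1) ∧ rs S x o = -1 :=
          ⟨fun v hv => by simp [rs, hv], fun v hv => by simpa [rs, hv] using h9 v hv,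
            by simpa [rs, ho] using h9'⟩
        have c2 : (∀ v ∈ S, rc S x v = 0) ∧ ∀ v, Bd s t (lo o) S v → rc S x v = 0 :=
          ⟨fun v hv => by simp [rc, hv], fun v hv => by
            have h11 : v ∉ S := hv.1
            simpa [rc, h11] using h10 v hv⟩
        unfold UK VS
        rw [if_pos c1, if_pos c2]
        have h12 : G (rc S x) = G x := hG _ _ fun v hv => by simp [rc, hv]
        show (W (grd s t) J 0)⁻¹ * (W (grd s t) J (rs S x) * (W (grd s t) J (rc S x) *
          G (rc S x))) = _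
        rw [h12, ← mul_assoc (W (grd s t) J (rs S x)), W_split h10]
        field_simp
      · rw [if_neg hE]
        by_cases c1 : (∀ v ∈ S, x v ≤ -1) ∧ x o = -1
        · have c2 : ¬ ∀ v, Bd s t (lo o) S v → x v = 0 := fun h => hE ⟨c1.1, c1.2, h⟩
          have c3 : ¬ ((∀ v ∈ S, rc S x v = 0) ∧ ∀ v, Bd s t (lo o) S v → rc S x v = 0) := by
            rintro ⟨-, h⟩
            apply c2
            intro v hv
            have h11 : v ∉ S := hv.1
            simpa [rc, h11] using h v hv
          unfold VS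
          rw [if_neg c3]
          ring
        · have c3 : ¬ ((∀ v, v ∉ S → rs S x v = 0) ∧ (∀ v ∈ S, rs S x v ≤ -1) ∧
              rs S x o = -1) := by
            rintro ⟨-, h, h'⟩
            apply c1
            refine ⟨fun v hv => ?_, ?_⟩
            · simpa [rs, hv] using h v hv
            · simpa [rs, ho] using h'
          unfold UK
          rw [if_neg c3]
          ring
    have h9 : (fun x : V → ℤ => if (∀ v ∈ S, x v ≤ -1) ∧ x o = -1 ∧
        ∀ v, Bd s t (lo o) S v → x v = 0 then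
        W (grd s t) J x * G x else 0) = fun x => (W (grd s t) J 0)⁻¹ *
        ((fun y : (V → ℤ) × ((V → ℤ) × Unit) =>
          UK s t o J S y.1 * VS s t (lo o) J S (fun h (_ : Unit) => G h) y.2) ∘ ι) x :=
      funext fun x => (e x).symm
    rw [h9]
    exact h8
  · rintro ⟨a, c, q⟩ hy
    by_contra hne
    apply hy
    have n1 : UK s t o J S a ≠ 0 := left_ne_zero_of_mul hne
    have n2 : VS s t (lo o) J S (fun h (_ : Unit) => G h) (c, q) ≠ 0 := right_ne_zero_of_mul hne
    unfold UK at n1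
    unfold VS at n2
    rw [ne_eq, ite_eq_right_iff, Classical.not_imp] at n1 n2
    obtain ⟨⟨a1, a2, a3⟩, -⟩ := n1
    obtain ⟨⟨b1, b2⟩, -⟩ := n2
    refine ⟨a + c, ?_⟩
    simp only [hι, Prod.mk.injEq, and_true]
    constructor
    · funext v
      by_cases hv : v ∈ S
      · simp only [rs, hv, if_true, Pi.add_apply]
        have := b1 v hv
        simp only at this
        rw [this, add_zero]
      · simp only [rs, hv, if_false]
        exact (a1 v hv).symm
    · funext v
      by_cases hv : v ∈ S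
      · simp only [rc, hv, if_true]
        exact (b1 v hv).symm
      · simp only [rc, hv, if_false, Pi.add_apply]
        rw [a1 v hv, zero_add]

end split

section m1

variable {V E B : Type} [Fintype V] [Fintype E] [Fintype B] {s t : E → V} {o : V} {r : B → V}

open Classical in
/-- the sum of `F` over the heights which are `0` at `o` -/
noncomputable def So (s t : E → V) (o : V) (J : E → ℝ) (F : (V → ℤ) → ℝ) : ℝ :=
  ∑' h : V → ℤ, if h o = 0 then W (grd s t) J h * F h else 0

open Classical in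
omit [Fintype V] in
lemma W_lo (J : E → ℝ) (h : V → ℤ) :
    W (grdL s t (lo o)) (Sum.elim J 0) h = if h o = 0 then W (grd s t) J h else 0 := by
  rw [W_grdL]
  unfold Psi vals
  simp only [Finset.univ_unique, Finset.prod_singleton, Pi.zero_apply, AddMonoidHom.coe_mk,
    ZeroHom.coe_mk, sub_zero, wI_zero_left]
  split_ifs <;> simp

open Classical in
omit [Fintype V] in
lemma So_eq (J : E → ℝ) (F : (V → ℤ) → ℝ) :
    So s t o J F = ∑' h, W (grdL s t (lo o)) (Sum.elim J 0) h * F h := by
  unfold So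
  refine tsum_congr fun h => ?_
  rw [W_lo]
  split_ifs <;> simp

omit [Fintype V] in
lemma Psi_le_one_mul {b : B → ℝ} (hb : ∀ y, 0 ≤ b y) (h : V → ℤ) (q : ℤ) :
    Psi (vals r) b h q ≤ ∏ y, wI (b y) 0 :=
  Finset.prod_le_prod (fun y _ => wI_nonneg (hb y) _) fun y _ => wI_anti (hb y) (by simp)

open Classical in
/-- the exploration inequality for one explored set -/
theorem explK (hc : Conn s t) {J : E → ℝ} {b : B → ℝ} (hJ : ∀ e, 0 ≤ J e)
    (hb : ∀ y, 0 ≤ b y) (S : Finset V) (ho : o ∈ S) (hL : LC s t (lo o) S)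
    (hS : ∀ y, r y ∉ S) :
    ∃ n1 n2 : ℝ,
      HasSum (fun g : V → ℤ => if (∀ v ∈ S, g v ≤ -1) ∧ g o = -1 ∧
        ∀ v, Bd s t (lo o) S v → g v = 0 then W (grd s t) J g else 0) n1 ∧
      HasSum (fun g : V → ℤ => if (∀ v ∈ S, g v ≤ -1) ∧ g o = -1 ∧
        ∀ v, Bd s t (lo o) S v → g v = 0 then W (grd s t) J g * Psi (vals r) b g 0 else 0) n2 ∧
      So s t o J (fun h => Psi (vals r) b h 0) * n1 ≤ So s t o J (fun _ => 1) * n2 := by
  have hinj := grdL_inj (s := s) (t := t) (l := lo o) hc ⟨()⟩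
  have hJ1 := J1_nonneg (s := s) (t := t) (l := lo o) hJ S
  have hK1 := K1_nonneg (s := s) (t := t) (l := lo o) (a := 0) hJ (fun _ => le_rfl) S
  have hU : Summable (UK s t o J S) := by
    have h1 := W_summable (D := grdL s t (lo o)) hinj (J := Sum.elim J 0)
      (by rintro (e | y) <;> simp [hJ])
    have h2 : Summable fun h : V → ℤ => if h o = -1 then W (grd s t) J h else 0 := by
      have h3 := (Equiv.addRight (1 : V → ℤ)).summable_iff.2 h1
      refine h3.congr fun h => ?_
      simp only [Function.comp, Equiv.coe_addRight]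
      rw [W_lo]
      have e1 : (h + 1) o = 0 ↔ h o = -1 := by
        simp only [Pi.add_apply, Pi.one_apply]
        omega
      have e2 : W (grd s t) J (h + 1) = W (grd s t) J h := by
        have := W_shift (s := s) (t := t) J (h + 1) 1
        rw [← this]
        congr 1
        funext v
        simp
      rw [e2]
      by_cases h4 : h o = -1
      · rw [if_pos h4, if_pos (e1.2 h4)]
      · rw [if_neg h4, if_neg fun h5 => h4 (e1.1 h5)]
    refine Summable.of_nonneg_of_le (UK_nonneg hJ S) (fun h => ?_) h2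
    unfold UK
    split_ifs with h4 h5
    · exact le_rfl
    · exact absurd h4.2.2 h5
    · exact W_nonneg hJ _
    · exact le_rfl
  have hs1 : Summable (W (grdL s t (lo o)) (J1 s t (lo o) J S)) := W_summable hinj hJ1
  have hs2 : Summable fun h : V → ℤ =>
      W (grdL s t (lo o)) (J1 s t (lo o) J S) h * Psi (vals r) b h 0 := by
    refine Summable.of_nonneg_of_le (fun h => mul_nonneg (W_nonneg hJ1 _) (Psi_nonneg hb _ _))
      (fun h => ?_) (hs1.mul_right (∏ y, wI (b y) 0))
    exact mul_le_mul_of_nonneg_left (Psi_le_one_mul hb h 0) (W_nonneg hJ1 _)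
  have hV1 : Summable (VS s t (lo o) J S (fun (_ : V → ℤ) (_ : Unit) => (1 : ℝ))) := by
    have h1 := (Equiv.prodPUnit (V → ℤ)).summable_iff.2 (hs1.mul_left (cT s t (lo o) J S))
    refine h1.congr fun x => ?_
    rw [VS_eq hL, mul_one]
    rfl
  have hV2 : Summable (VS s t (lo o) J S (fun h (_ : Unit) => Psi (vals r) b h 0)) := by
    have h1 := (Equiv.prodPUnit (V → ℤ)).summable_iff.2 (hs2.mul_left (cT s t (lo o) J S))
    refine h1.congr fun x => ?_
    rw [VS_eq hL]
    rfl
  have m1 := markovK hJ ho (G := fun (_ : V → ℤ) => (1 : ℝ))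
    (fun _ => zero_le_one) (fun _ _ _ => rfl) hU hV1
  have m2 := markovK hJ ho (G := fun h => Psi (vals r) b h 0)
    (fun h => Psi_nonneg hb h 0) (fun h h' hh => by
      unfold Psi vals
      refine Finset.prod_congr rfl fun y _ => ?_
      simp only [AddMonoidHom.coe_mk, ZeroHom.coe_mk]
      rw [hh (r y) (hS y)]) hU hV2
  have e1 : ∑' x, VS s t (lo o) J S (fun (_ : V → ℤ) (_ : Unit) => (1 : ℝ)) x =
      cT s t (lo o) J S * ∑' h, W (grdL s t (lo o)) (J1 s t (lo o) J S) h := by
    rw [← tsum_mul_left, ← (Equiv.prodPUnit (V → ℤ)).tsum_eq]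
    refine tsum_congr fun x => ?_
    rw [VS_eq hL, mul_one]
    rfl
  have e2 : ∑' x, VS s t (lo o) J S (fun h (_ : Unit) => Psi (vals r) b h 0) x =
      cT s t (lo o) J S * ∑' h : V → ℤ,
        W (grdL s t (lo o)) (J1 s t (lo o) J S) h * Psi (vals r) b h 0 := by
    rw [← tsum_mul_left, ← (Equiv.prodPUnit (V → ℤ)).tsum_eq]
    refine tsum_congr fun x => ?_
    rw [VS_eq hL]
    rfl
  simp only [mul_one] at m1
  refine ⟨_, _, m1, m2, ?_⟩
  rw [e1, e2, So_eq, So_eq]
  have hm := mono_Psi0 hinj hJ1 hK1 (vals r) hb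
  rw [J1_add_K1] at hm
  have hu0 : 0 ≤ (W (grd s t) J 0)⁻¹ * (∑' h, UK s t o J S h) * cT s t (lo o) J S :=
    mul_nonneg (mul_nonneg (inv_nonneg.2 (W_nonneg hJ _)) (tsum_nonneg fun h =>
      UK_nonneg hJ S h)) (cT_pos hJ S).le
  have h3 := mul_le_mul_of_nonneg_left hm hu0
  simp only [mul_one] at h3 ⊢
  linarith

/-- the cluster of `o` misses the right lip and is surrounded by the height `1` -/
def Gd (s t : E → V) (o : V) (r : B → V) (h : V → ℤ) : Prop :=
  (∀ y, r y ∉ Kc s t o h) ∧ PS s t o (Kc s t o h) h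

omit [Fintype V] in
lemma summable_So (hc : Conn s t) {J : E → ℝ} (hJ : ∀ e, 0 ≤ J e) {F : (V → ℤ) → ℝ} {C : ℝ}
    (hF : ∀ h, |F h| ≤ C) :
    Summable fun h : V → ℤ => open Classical in if h o = 0 then W (grd s t) J h * F h else 0 := by
  classical
  have h1 := (summable_at hc hJ o).mul_right C
  refine Summable.of_norm_bounded h1 fun h => ?_
  rw [Real.norm_eq_abs]
  split_ifs
  · rw [abs_mul, abs_of_nonneg (W_nonneg hJ _)]
    exact mul_le_mul_of_nonneg_left (hF h) (W_nonneg hJ _)
  · simp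

open Classical in
/-- **One sided exploration inequality.** -/
theorem one_sided (hc : Conn s t) {J : E → ℝ} {b : B → ℝ} (hJ : ∀ e, 0 ≤ J e)
    (hb : ∀ y, 0 ≤ b y) :
    So s t o J (fun h => Psi (vals r) b h 0) *
        So s t o J (fun h => if Gd s t o r h then 1 else 0) ≤
      So s t o J (fun _ => 1) * So s t o J (fun h => Psi (vals r) b h 1) := by
  set F : Finset (Finset V) := Finset.univ.filter fun S =>
    o ∈ S ∧ LC s t (lo o) S ∧ ∀ y, r y ∉ S with hF
  have key : ∀ S : Finset V, ∃ m : ℝ × ℝ, S ∈ F →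
      HasSum (fun g : V → ℤ => if (∀ v ∈ S, g v ≤ -1) ∧ g o = -1 ∧
        ∀ v, Bd s t (lo o) S v → g v = 0 then W (grd s t) J g else 0) m.1 ∧
      HasSum (fun g : V → ℤ => if (∀ v ∈ S, g v ≤ -1) ∧ g o = -1 ∧
        ∀ v, Bd s t (lo o) S v → g v = 0 then W (grd s t) J g * Psi (vals r) b g 0 else 0) m.2 ∧
      So s t o J (fun h => Psi (vals r) b h 0) * m.1 ≤ So s t o J (fun _ => 1) * m.2 := by
    intro S
    by_cases hS : S ∈ F
    · obtain ⟨-, h1, h2, h3⟩ := Finset.mem_filter.1 hS
      obtain ⟨n1, n2, h⟩ := explK (r := r) hc hJ hb S h1 h2 h3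
      exact ⟨(n1, n2), fun _ => h⟩
    · exact ⟨0, fun h => absurd h hS⟩
  choose m hm using key
  -- the sum of the indicators
  have sum_ind : ∀ (g : V → ℤ) (c : ℝ),
      ∑ S ∈ F, (if (∀ v ∈ S, g v ≤ -1) ∧ g o = -1 ∧ ∀ v, Bd s t (lo o) S v → g v = 0
        then c else 0) =
        if (g + 1) o = 0 ∧ Gd s t o r (g + 1) then c else 0 := by
    intro g c
    have hiff : ∀ S ∈ F, ((∀ v ∈ S, g v ≤ -1) ∧ g o = -1 ∧
        ∀ v, Bd s t (lo o) S v → g v = 0) ↔
        ((g + 1) o = 0 ∧ Gd s t o r (g + 1)) ∧ S = Kc s t o (g + 1) := by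
      intro S hS
      obtain ⟨-, h1, h2, h3⟩ := Finset.mem_filter.1 hS
      constructor
      · rintro ⟨a1, a2, a3⟩
        have hP : PS s t o S (g + 1) := by
          refine ⟨fun v hv => ?_, fun v hv => ?_⟩
          · have := a1 v hv
            simp only [Pi.add_apply, Pi.one_apply]
            omega
          · have := a3 v hv
            simp only [Pi.add_apply, Pi.one_apply]
            omega
        have hK := Kc_eq_of h2 hP
        refine ⟨⟨by simp only [Pi.add_apply, Pi.one_apply]; omega, ?_, ?_⟩, hK.symm⟩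
        · rw [hK]; exact h3
        · rw [hK]; exact hP
      · rintro ⟨⟨a1, -, a3⟩, rfl⟩
        refine ⟨fun v hv => ?_, ?_, fun v hv => ?_⟩
        · have := a3.1 v hv
          simp only [Pi.add_apply, Pi.one_apply] at this
          omega
        · simp only [Pi.add_apply, Pi.one_apply] at a1
          omega
        · have := a3.2 v hv
          simp only [Pi.add_apply, Pi.one_apply] at this
          omega
    rw [Finset.sum_congr rfl fun S hS => if_congr (hiff S hS) rfl rfl]
    by_cases hG : (g + 1) o = 0 ∧ Gd s t o r (g + 1)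
    · rw [if_pos hG]
      have hKF : Kc s t o (g + 1) ∈ F :=
        Finset.mem_filter.2 ⟨Finset.mem_univ _, mem_Kc_o hG.1, LC_Kc _, hG.2.1⟩
      rw [Finset.sum_eq_single (Kc s t o (g + 1))]
      · rw [if_pos ⟨hG, rfl⟩]
      · intro S _ hne
        rw [if_neg fun h => hne h.2]
      · intro h
        exact absurd hKF h
    · rw [if_neg hG]
      exact Finset.sum_eq_zero fun S _ => if_neg fun h => hG h.1
  have h1 := hasSum_sum (s := F) (f := fun S (g : V → ℤ) =>
    if (∀ v ∈ S, g v ≤ -1) ∧ g o = -1 ∧ ∀ v, Bd s t (lo o) S v → g v = 0 then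
      W (grd s t) J g else 0) (a := fun S => (m S).1) fun S hS => (hm S hS).1
  have h2 := hasSum_sum (s := F) (f := fun S (g : V → ℤ) =>
    if (∀ v ∈ S, g v ≤ -1) ∧ g o = -1 ∧ ∀ v, Bd s t (lo o) S v → g v = 0 then
      W (grd s t) J g * Psi (vals r) b g 0 else 0)
    (a := fun S => (m S).2) fun S hS => (hm S hS).2.1
  simp only [sum_ind] at h1 h2
  have hW1 : ∀ g : V → ℤ, W (grd s t) J g = W (grd s t) J (g + 1) := by
    intro g
    have := W_shift (s := s) (t := t) J (g + 1) 1
    rw [← this]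
    congr 1
    funext v
    simp
  have hP1 : ∀ g : V → ℤ, Psi (vals r) b g 0 = Psi (vals r) b (g + 1) 1 := by
    intro g
    unfold Psi vals
    refine Finset.prod_congr rfl fun y _ => ?_
    congr 1
    simp
  have e1 : So s t o J (fun h => if Gd s t o r h then 1 else 0) = ∑ S ∈ F, (m S).1 := by
    rw [← h1.tsum_eq, So, ← (Equiv.addRight (1 : V → ℤ)).tsum_eq]
    refine tsum_congr fun g => ?_
    simp only [Equiv.coe_addRight]
    rw [hW1 g]
    by_cases c1 : (g + 1) o = 0 <;> by_cases c2 : Gd s t o r (g + 1) <;> simp [c1, c2]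
  have e2 : So s t o J (fun h => (if Gd s t o r h then 1 else 0) * Psi (vals r) b h 1) =
      ∑ S ∈ F, (m S).2 := by
    rw [← h2.tsum_eq, So, ← (Equiv.addRight (1 : V → ℤ)).tsum_eq]
    refine tsum_congr fun g => ?_
    simp only [Equiv.coe_addRight]
    rw [hW1 g, hP1 g]
    by_cases c1 : (g + 1) o = 0 <;> by_cases c2 : Gd s t o r (g + 1) <;> simp [c1, c2]
  have hPsi : ∀ h : V → ℤ, |Psi (vals r) b h 1| ≤ ∏ y, wI (b y) 0 := fun h => by
    rw [abs_of_nonneg (Psi_nonneg hb _ _)]
    exact Psi_le_one_mul hb h 1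
  have h3 : So s t o J (fun h => (if Gd s t o r h then 1 else 0) * Psi (vals r) b h 1) ≤
      So s t o J (fun h => Psi (vals r) b h 1) := by
    unfold So
    refine Summable.tsum_le_tsum (fun h => ?_) ?_ (summable_So hc hJ hPsi)
    · have h5 := mul_nonneg (W_nonneg (D := grd s t) hJ h) (Psi_nonneg (ρ := vals r) hb h 1)
      by_cases c1 : h o = 0 <;> by_cases c2 : Gd s t o r h <;> simp [c1, c2, h5]
    · refine summable_So hc hJ (C := ∏ y, wI (b y) 0) fun h => ?_
      split_ifs
      · rw [one_mul]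
        exact hPsi h
      · rw [zero_mul, abs_zero]
        exact (abs_nonneg _).trans (hPsi h)
  have h4 : 0 ≤ So s t o J (fun _ => 1) := by
    unfold So
    refine tsum_nonneg fun h => ?_
    split_ifs
    · rw [mul_one]; exact W_nonneg hJ _
    · exact le_rfl
  calc So s t o J (fun h => Psi (vals r) b h 0) *
        So s t o J (fun h => if Gd s t o r h then 1 else 0)
      = ∑ S ∈ F, So s t o J (fun h => Psi (vals r) b h 0) * (m S).1 := by
        rw [e1, Finset.mul_sum]
    _ ≤ ∑ S ∈ F, So s t o J (fun _ => 1) * (m S).2 :=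
        Finset.sum_le_sum fun S hS => (hm S hS).2.2
    _ = So s t o J (fun _ => 1) *
        So s t o J (fun h => (if Gd s t o r h then 1 else 0) * Psi (vals r) b h 1) := by
        rw [e2, Finset.mul_sum]
    _ ≤ _ := mul_le_mul_of_nonneg_left h3 h4

end m1

end Vale.Agent.P159.T1.H50
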