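import Vale.Agent.P159.T1.H50.M1
import Vale.Agent.P159.R2.H729.Dbl

/-!
One sided inequality on the coarse graph (limit of the halved graphs): the heights which are `0` at
`o` and for which no chain of `{h ≤ 0}` joins `o` to the right lip have weight at most
`Z_N * Z_1 / Z_0`.
-/

open MeasureTheory Filter Topology

namespace Vale.Agent.P159.T1.H50

open Vale.Agent.P159 Vale.Agent.P159.H353 Vale.Agent.P159.R2.H254 Vale.Agent.P159.R2.H729
  Vale.Agent.P159.T1.H934

section dbl

variable {V E B : Type} [Fintype V] [Fintype E] [Fintype B] {s t : E → V} {o : V} {r : B → V}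

/-- sums over the heights of the halved graph -/
theorem So_dbl {J : E → ℝ} (hJ : ∀ e, 0 ≤ J e) (F : (V → ℤ) → ℝ) (hF : ∀ h, 0 ≤ F h) :
    So (s2 s) (t2 t) (Sum.inl o) (J2 J) (fun h => F fun v => h (Sum.inl v)) = So s t o J F := by
  classical
  have h := tsum_dbl (s := s) (t := t) hJ (X := V → ℤ) (fun x => x)
    (fun x => if x o = 0 then F x else 0) (fun x => by
      split_ifs
      · exact hF x
      · exact le_rfl)
  unfold So
  have e2 : (∑' x : V → ℤ, (if x o = 0 then F x else 0) * W (grd s t) J x) =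
      ∑' h : V → ℤ, if h o = 0 then W (grd s t) J h * F h else 0 :=
    tsum_congr fun x => by split_ifs <;> ring
  rw [e2] at h
  rw [← h, ← (eb V E).symm.tsum_eq]
  refine tsum_congr fun p => ?_
  have e3 : (eb V E).symm p = (Sum.elim p.1 p.2 : V ⊕ E → ℤ) := rfl
  rw [e3]
  simp only [Sum.elim_inl]
  by_cases h0 : p.1 o = 0
  · simp only [h0, if_true]
    ring
  · simp only [h0, if_false]
    ring

omit [Fintype E] in
/-- the cluster of the halved graph -/
theorem Kc_dbl {h : V ⊕ E → ℤ} [Fintype (V ⊕ E)] {v : V}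
    (hv : Sum.inl v ∈ Kc (s2 s) (t2 t) (Sum.inl o) h) :
    v ∈ Kc s t o (fun u => h (Sum.inl u)) := by
  rw [mem_Kc] at hv ⊢
  have e1 : Set.range (lo (Sum.inl o : V ⊕ E)) = Sum.inl '' (Set.range (lo o)) := by
    ext x
    simp
  have e2 : ({Sum.inl v} : Set (V ⊕ E)) = Sum.inl '' ({v} : Set V) := by simp
  rw [e1, e2] at hv
  exact (sub2 (s := s) (t := t)).cn hv

end dbl

section lim

/-- `o` is not joined to the right lip in `{h ≤ 0}` -/
def Ms {V E B : Type} [Fintype V] (s t : E → V) (o : V) (r : B → V) (h : V → ℤ) : Prop :=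
  ∀ y, r y ∉ Kc s t o h

open Classical in
/-- nonnegativity of the sums -/
lemma So_nonneg {V E : Type} [Fintype V] [Fintype E] {s t : E → V} {o : V} {J : E → ℝ}
    (hJ : ∀ e, 0 ≤ J e) {F : (V → ℤ) → ℝ} (hF : ∀ h, 0 ≤ F h) : 0 ≤ So s t o J F := by
  unfold So
  refine tsum_nonneg fun h => ?_
  split_ifs
  · exact mul_nonneg (W_nonneg hJ _) (hF h)
  · exact le_rfl

open Classical in
lemma So_mono {V E : Type} [Fintype V] [Fintype E] {s t : E → V} {o : V} (hc : Conn s t)
    {J : E → ℝ} (hJ : ∀ e, 0 ≤ J e) {F G : (V → ℤ) → ℝ} {C : ℝ} (hF : ∀ h, |F h| ≤ C)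
    (hG : ∀ h, |G h| ≤ C) (hFG : ∀ h, h o = 0 → F h ≤ G h) : So s t o J F ≤ So s t o J G := by
  unfold So
  refine (summable_So hc hJ hF).tsum_le_tsum (fun h => ?_) (summable_So hc hJ hG)
  split_ifs with h0
  · exact mul_le_mul_of_nonneg_left (hFG h h0) (W_nonneg hJ _)
  · exact le_rfl

open Classical in
lemma So_add {V E : Type} [Fintype V] [Fintype E] {s t : E → V} {o : V} (hc : Conn s t)
    {J : E → ℝ} (hJ : ∀ e, 0 ≤ J e) {F G : (V → ℤ) → ℝ} {C : ℝ} (hF : ∀ h, |F h| ≤ C)
    (hG : ∀ h, |G h| ≤ C) : So s t o J (fun h => F h + G h) = So s t o J F + So s t o J G := by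
  unfold So
  rw [← (summable_So hc hJ hF).tsum_add (summable_So hc hJ hG)]
  refine tsum_congr fun h => ?_
  split_ifs <;> ring

open Classical in
/-- large steps -/
lemma So_two {V E : Type} [Fintype V] [Fintype E] {s t : E → V} {o : V} (hc : Conn s t)
    {J : E → ℝ} (hJ : ∀ e, 0 ≤ J e) :
    So s t o J (fun h => if ∃ e, 2 ≤ |h (t e) - h (s e)| then 1 else 0) ≤
      (∑ e, J e ^ 2 / 4) * So s t o J (fun _ => 1) := by
  have key : ∀ F : (V → ℤ) → ℝ, So s t o J F =
      ∑' h : {h : V → ℤ // h o = 0}, W (grd s t) J h.1 * F h.1 := by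
    intro F
    unfold So
    rw [← tsum_subtype_eq_of_support_subset (s := {h : V → ℤ | h o = 0})]
    · refine tsum_congr fun h => ?_
      have h1 : h.1 o = 0 := h.2
      rw [if_pos h1]
    · intro h hh
      by_contra hne
      exact hh (if_neg hne)
  rw [key, key]
  have h := two_le_heights (s := s) (t := t) hc hJ o
  simp only [mul_one]
  refine le_trans (le_of_eq (tsum_congr fun h => ?_)) h
  split_ifs <;> simp

open Classical in
/-- the inequality with an error term which is halved together with the edges -/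
theorem one_sided_err (k : ℕ) : ∀ {V E B : Type} [Fintype V] [Fintype E] [Fintype B]
    {s t : E → V} {o : V} {r : B → V} (_ : Conn s t) {J : E → ℝ} {b : B → ℝ} (_ : ∀ e, 0 ≤ J e)
    (_ : ∀ y, 0 ≤ b y),
    So s t o J (fun h => Psi (vals r) b h 0) *
        So s t o J (fun h => if Ms s t o r h then 1 else 0) ≤
      So s t o J (fun _ => 1) * So s t o J (fun h => Psi (vals r) b h 1) +
        So s t o J (fun h => Psi (vals r) b h 0) *
          ((∑ e, J e ^ 2) / 4 * (1 / 2) ^ k * So s t o J (fun _ => 1)) := by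
  induction k with
  | zero =>
    intro V E B _ _ _ s t o r hc J b hJ hb
    have h1 := one_sided (o := o) (r := r) hc hJ hb
    have h2 := So_two (o := o) hc hJ
    have h3 : So s t o J (fun h => if Ms s t o r h then 1 else 0) ≤
        So s t o J (fun h => if Gd s t o r h then 1 else 0) +
          So s t o J (fun h => if ∃ e, 2 ≤ |h (t e) - h (s e)| then 1 else 0) := by
      rw [← So_add hc hJ (C := 1) (fun h => by split_ifs <;> simp)
        (fun h => by split_ifs <;> simp)]
      refine So_mono hc hJ (C := 2) (fun h => by split_ifs <;> norm_num) (fun h => ?_)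
        (fun h h0 => ?_)
      · split_ifs <;> norm_num
      · by_cases h4 : Ms s t o r h
        · rw [if_pos h4]
          by_cases h5 : ∃ e, 2 ≤ |h (t e) - h (s e)|
          · rw [if_pos h5]
            split_ifs <;> norm_num
          · have h6 : Gd s t o r h := ⟨h4, Kc_PS h0 fun e => by
              by_contra h7
              exact h5 ⟨e, by omega⟩⟩
            rw [if_pos h6, if_neg h5]
            norm_num
        · rw [if_neg h4]
          split_ifs <;> norm_num
    have h4 : 0 ≤ So s t o J (fun h => Psi (vals r) b h 0) :=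
      So_nonneg hJ fun h => Psi_nonneg hb h 0
    rw [← Finset.sum_div] at h2
    simp only [pow_zero, mul_one]
    nlinarith [mul_le_mul_of_nonneg_left (h3.trans (add_le_add_right h2 _)) h4]
  | succ k ih =>
    intro V E B _ _ _ s t o r hc J b hJ hb
    have h := ih (o := Sum.inl o) (r := fun y => (Sum.inl (r y) : V ⊕ E)) (conn2 hc)
      (J2_nonneg hJ) hb
    have e1 : ∀ q : ℤ, So (s2 s) (t2 t) (Sum.inl o) (J2 J)
        (fun h => Psi (vals fun y => (Sum.inl (r y) : V ⊕ E)) b h q) =
        So s t o J (fun h => Psi (vals r) b h q) := fun q =>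
      So_dbl hJ (fun h => Psi (vals r) b h q) fun h => Psi_nonneg hb h q
    have e2 : So (s2 s) (t2 t) (Sum.inl o) (J2 J) (fun _ => 1) = So s t o J (fun _ => 1) :=
      So_dbl hJ (fun _ => 1) fun _ => zero_le_one
    have e3 : So s t o J (fun h => if Ms s t o r h then 1 else 0) ≤
        So (s2 s) (t2 t) (Sum.inl o) (J2 J)
          (fun h => if Ms (s2 s) (t2 t) (Sum.inl o) (fun y => (Sum.inl (r y) : V ⊕ E)) h
            then 1 else 0) := by
      rw [← So_dbl hJ (fun h => if Ms s t o r h then 1 else 0)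
        (fun h => by split_ifs <;> norm_num)]
      refine So_mono (conn2 hc) (J2_nonneg hJ) (C := 1) (fun h => by split_ifs <;> simp)
        (fun h => by split_ifs <;> simp) (fun h _ => ?_)
      by_cases h5 : Ms s t o r fun v => h (Sum.inl v)
      · have h6 : Ms (s2 s) (t2 t) (Sum.inl o) (fun y => (Sum.inl (r y) : V ⊕ E)) h :=
          fun y hy => h5 y (Kc_dbl hy)
        rw [if_pos h5, if_pos h6]
      · rw [if_neg h5]
        split_ifs <;> norm_num
    rw [e1 0, e1 1, e2] at h
    have e4 : ∑ x : E × Bool, J2 J x ^ 2 = (∑ e, J e ^ 2) / 2 := sum_J2_sq J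
    rw [e4] at h
    have h4 : 0 ≤ So s t o J (fun g => Psi (vals r) b g 0) :=
      So_nonneg hJ (F := fun g => Psi (vals r) b g 0) (fun g => Psi_nonneg hb g 0)
    have h5 := mul_le_mul_of_nonneg_left e3 h4
    refine h5.trans (h.trans (le_of_eq ?_))
    generalize (∑ e, J e ^ 2) = x1
    generalize So s t o J (fun h => Psi (vals r) b h 0) = x2
    generalize So s t o J (fun _ => 1) * So s t o J (fun h => Psi (vals r) b h 1) = x3
    generalize So s t o J (fun _ => 1) = x4
    rw [pow_succ]
    ring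

open Classical in
/-- **One sided inequality.** The heights with `h o = 0` for which `o` is not joined to the right
lip in `{h ≤ 0}`. -/
theorem one_sided_lim {V E B : Type} [Fintype V] [Fintype E] [Fintype B]
    {s t : E → V} {o : V} {r : B → V} (hc : Conn s t) {J : E → ℝ} {b : B → ℝ} (hJ : ∀ e, 0 ≤ J e)
    (hb : ∀ y, 0 ≤ b y) :
    So s t o J (fun h => Psi (vals r) b h 0) *
        So s t o J (fun h => if Ms s t o r h then 1 else 0) ≤
      So s t o J (fun _ => 1) * So s t o J (fun h => Psi (vals r) b h 1) := by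
  have h2 := fun k => one_sided_err (o := o) (r := r) k hc hJ hb
  revert h2
  generalize So s t o J (fun h => Psi (vals r) b h 0) *
    So s t o J (fun h => if Ms s t o r h then 1 else 0) = x1
  generalize So s t o J (fun _ => 1) * So s t o J (fun h => Psi (vals r) b h 1) = x2
  generalize So s t o J (fun h => Psi (vals r) b h 0) = x3
  generalize So s t o J (fun _ => 1) = x4
  generalize (∑ e, J e ^ 2) / 4 = x5
  intro h2
  have h3 : Tendsto (fun k : ℕ => ((1 : ℝ) / 2) ^ k) atTop (𝓝 0) :=
    tendsto_pow_atTop_nhds_zero_of_lt_one (by norm_num) (by norm_num)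
  have h1 : Tendsto (fun k : ℕ => x2 + x3 * (x5 * (1 / 2 : ℝ) ^ k * x4)) atTop
      (𝓝 (x2 + x3 * (x5 * 0 * x4))) :=
    (((h3.const_mul x5).mul_const x4).const_mul x3).const_add x2
  have h4 := ge_of_tendsto' h1 h2
  rw [mul_zero, zero_mul, mul_zero, add_zero] at h4
  exact h4

end lim

end Vale.Agent.P159.T1.H50
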